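import Vale.Agent.P235.R2.AP.Defs
import Mathlib.Analysis.LocallyConvex.Separation
import Mathlib.Analysis.Convex.StdSimplex
import Mathlib.Topology.Algebra.Module.FiniteDimension

/-!
# P235, all planar graphs, row AP8: the minimax (dual) form of the law on configurations (helper494)
-/

set_option autoImplicit false

namespace Vale.Agent.P235.AP

/-- finite minimax: if for every weight `D ≥ 0` one row `N i` is on the average at least `d`, then
a convex combination of the rows is at least `d` everywhere -/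
theorem finite_minimax {ι X : Type} [Fintype ι] [Fintype X] (N : ι → X → ℝ) (d : X → ℝ)
    (h : ∀ D : X → ℝ, (∀ x, 0 ≤ D x) → ∃ i, ∑ x, D x * d x ≤ ∑ x, D x * N i x) :
    ∃ p : ι → ℝ, (∀ i, 0 ≤ p i) ∧ ∑ i, p i = 1 ∧ ∀ x, d x ≤ ∑ i, p i * N i x := by
  classical
  obtain ⟨L, hL⟩ : ∃ L : (ι → ℝ) →ₗ[ℝ] (X → ℝ), ∀ p x, L p x = ∑ i, p i * N i x := by
    refine ⟨{ toFun := fun p x => ∑ i, p i * N i x, map_add' := ?_, map_smul' := ?_ }, ?_⟩
    · intro p q
      ext x
      simp only [Pi.add_apply, add_mul, Finset.sum_add_distrib]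
    · intro a p
      ext x
      simp only [Pi.smul_apply, smul_eq_mul, RingHom.id_apply, Finset.mul_sum, mul_assoc]
    · intro p x
      rfl
  have hLc : Continuous L := LinearMap.continuous_of_finiteDimensional L
  by_contra hcon
  have hdisj : Disjoint (L '' stdSimplex ℝ ι) (Set.Ici d) := by
    rw [Set.disjoint_left]
    rintro y ⟨p, hp, rfl⟩ hy
    apply hcon
    refine ⟨p, hp.1, hp.2, fun x => ?_⟩
    have := hy x
    rwa [hL] at this
  obtain ⟨f, s, t, h1, hst, h2⟩ := geometric_hahn_banach_compact_closed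
    ((convex_stdSimplex ℝ ι).linear_image L) ((isCompact_stdSimplex ℝ ι).image hLc)
    (convex_Ici d) isClosed_Ici hdisj
  have hf : ∀ y : X → ℝ, f y = ∑ x, f (Pi.single x 1) * y x := by
    intro y
    have e : y = ∑ x, y x • (Pi.single x (1 : ℝ) : X → ℝ) := by
      ext z
      simp [Finset.sum_apply, Pi.single_apply]
    conv_lhs => rw [e]
    rw [map_sum]
    refine Finset.sum_congr rfl fun x _ => ?_
    rw [map_smul, smul_eq_mul, mul_comm]
  have hD : ∀ x, 0 ≤ f (Pi.single x 1) := by
    intro x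
    by_contra hx
    rw [not_le] at hx
    have hmem : ∀ a : ℝ, 0 ≤ a → t < f d + a * f (Pi.single x 1) := by
      intro a ha
      have := h2 (d + a • Pi.single x 1) (by
        intro z
        have : (0 : ℝ) ≤ a * (Pi.single x (1 : ℝ) : X → ℝ) z := by
          apply mul_nonneg ha
          by_cases hz : z = x
          · subst hz; simp
          · rw [Pi.single_eq_of_ne hz]
        simpa using this)
      rwa [map_add, map_smul, smul_eq_mul] at this
    have h0 := hmem 0 le_rfl
    rw [zero_mul, add_zero] at h0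
    have h3 := hmem ((f d - t) / (-f (Pi.single x 1)))
      (div_nonneg (by linarith) (by linarith))
    have h4 : (f d - t) / (-f (Pi.single x 1)) * f (Pi.single x 1) = -(f d - t) := by
      rw [div_mul_eq_mul_div, div_eq_iff (by linarith)]
      ring
    rw [h4] at h3
    linarith
  obtain ⟨i, hi⟩ := h (fun x => f (Pi.single x 1)) hD
  have h5 : f (N i) < s := by
    apply h1
    refine ⟨Pi.single i 1, ⟨fun j => ?_, ?_⟩, ?_⟩
    · by_cases hj : j = i
      · subst hj; simp
      · rw [Pi.single_eq_of_ne hj]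
    · simp
    · ext x
      rw [hL, Finset.sum_eq_single i]
      · simp
      · intro j _ hj
        rw [Pi.single_eq_of_ne hj, zero_mul]
      · simp
  have h6 : t < f d := h2 d (Set.mem_Ici.2 le_rfl)
  rw [hf (N i)] at h5
  rw [hf d] at h6
  linarith

/-- AP8, law form: if for every weight `D ≥ 0` on pairs of marked vertices there is ONE
configuration with `∑ D · NN ≥ c ∑ D · dist`, then there is a finite law of configurations with mean
norm at least `c · dist` on the marked vertices -/
def RowMinimax : Prop :=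
  ∀ (V : Type) [Finite V] (G : SimpleGraph V) (σ : Equiv.Perm G.Dart) (u : V → ℤ) (S : Set V)
    (c : ℝ),
    (∀ D : V → V → ℝ, (∀ x y, 0 ≤ D x y) → (∀ x y, x ∉ S ∨ y ∉ S → D x y = 0) →
      ∃ π : Equiv.Perm (Up G u), Conf σ u π ∧
        c * ∑ᶠ x, ∑ᶠ y, D x y * G.dist x y ≤ ∑ᶠ x, ∑ᶠ y, D x y * NN π x y) →
    ∃ (ι : Type) (_ : Finite ι) (p : ι → ℝ) (π : ι → Equiv.Perm (Up G u)),
      (∀ i, 0 ≤ p i) ∧ ∑ᶠ i, p i = 1 ∧ (∀ i, Conf σ u (π i)) ∧
      ∀ x ∈ S, ∀ y ∈ S, c * G.dist x y ≤ ∑ᶠ i, p i * NN (π i) x y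

theorem rowMinimax : RowMinimax := by
  intro V _ G σ u S c h
  classical
  have : Fintype V := Fintype.ofFinite V
  have : Finite G.Dart := Finite.of_injective (fun d : G.Dart => (d.fst, d.snd)) (by
    intro d d' hd
    simp only [Prod.mk.injEq] at hd
    exact SimpleGraph.Dart.ext _ _ (Prod.ext hd.1 hd.2))
  have : Finite (Up G u) := Subtype.finite
  have : Finite {π : Equiv.Perm (Up G u) // Conf σ u π} := Subtype.finite
  have : Fintype {π : Equiv.Perm (Up G u) // Conf σ u π} := Fintype.ofFinite _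
  have : Fintype (S × S) := Fintype.ofFinite _
  obtain ⟨p, hp0, hp1, hp⟩ := finite_minimax
    (ι := {π : Equiv.Perm (Up G u) // Conf σ u π}) (X := S × S)
    (fun i z => NN i.1 z.1.1 z.2.1) (fun z => c * G.dist z.1.1 z.2.1) (by
      intro D hD
      obtain ⟨π, hπ, hle⟩ := h
        (fun x y => if hx : x ∈ S ∧ y ∈ S then D (⟨x, hx.1⟩, ⟨y, hx.2⟩) else 0)
        (fun x y => by
          split_ifs with hx
          · exact hD _
          · exact le_rfl)
        (fun x y hxy => by
          rw [dif_neg]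
          rintro ⟨h1, h2⟩
          rcases hxy with h3 | h3
          · exact h3 h1
          · exact h3 h2)
      have key : ∀ g : V → V → ℝ,
          (∑ᶠ x, ∑ᶠ y, (if hx : x ∈ S ∧ y ∈ S then D (⟨x, hx.1⟩, ⟨y, hx.2⟩) else 0) * g x y) =
            ∑ z : S × S, D z * g z.1.1 z.2.1 := by
        intro g
        rw [finsum_eq_sum_of_fintype]
        simp only [finsum_eq_sum_of_fintype]
        rw [← Finset.sum_product', Finset.univ_product_univ]
        symm
        apply Finset.sum_of_injOn (fun z : S × S => (z.1.1, z.2.1))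
        · intro z _ z' _ hz
          simp only [Prod.mk.injEq] at hz
          exact Prod.ext (Subtype.ext hz.1) (Subtype.ext hz.2)
        · intro z _
          simp
        · intro w _ hw
          rw [dif_neg, zero_mul]
          rintro ⟨h1, h2⟩
          apply hw
          exact ⟨(⟨w.1, h1⟩, ⟨w.2, h2⟩), by simp, rfl⟩
        · intro z _
          rw [dif_pos ⟨z.1.2, z.2.2⟩]
      refine ⟨⟨π, hπ⟩, ?_⟩
      rw [key (fun x y => (G.dist x y : ℝ)), key (fun x y => NN π x y), Finset.mul_sum] at hle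
      calc ∑ z : S × S, D z * (c * (G.dist z.1.1 z.2.1 : ℝ))
          = ∑ z : S × S, c * (D z * (G.dist z.1.1 z.2.1 : ℝ)) :=
            Finset.sum_congr rfl fun z _ => by ring
        _ ≤ _ := hle)
  refine ⟨{π : Equiv.Perm (Up G u) // Conf σ u π}, inferInstance, p, fun i => i.1, hp0, ?_,
    fun i => i.2, ?_⟩
  · rw [finsum_eq_sum_of_fintype]
    exact hp1
  · intro x hx y hy
    rw [finsum_eq_sum_of_fintype]
    exact hp (⟨x, hx⟩, ⟨y, hy⟩)

/-- the dual form of the law gives an embedding (all vertices marked) -/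
theorem embeds_of_dual (hL : RowLaw) (V : Type) [Finite V] (G : SimpleGraph V)
    (σ : Equiv.Perm G.Dart) (u : V → ℤ) (c : ℝ) (hG : G.Connected) (hσ : PlaneMap G σ)
    (hu : UnitH G u) (hc : 0 < c)
    (h : ∀ D : V → V → ℝ, (∀ x y, 0 ≤ D x y) →
      ∃ π : Equiv.Perm (Up G u), Conf σ u π ∧
        c * ∑ᶠ x, ∑ᶠ y, D x y * G.dist x y ≤ ∑ᶠ x, ∑ᶠ y, D x y * NN π x y) :
    EmbedsL1 (fun x y => (G.dist x y : ℝ)) (1 / c) := by
  obtain ⟨ι, hι, p, π, h0, h1, h2, h3⟩ := rowMinimax V G σ u Set.univ c (fun D hD _ => h D hD)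
  exact hL V G σ u c ι p π hG hσ hu hc h0 h1 h2 fun x y => h3 x (Set.mem_univ x) y (Set.mem_univ y)

end Vale.Agent.P235.AP

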